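import Mathlib
import Vale.Agent.H48.Kemperman

/-!
# Seymour's second neighbourhood conjecture for vertex-transitive oriented graphs

Every vertex `v` of a finite vertex-transitive oriented graph satisfies
`|N₁⁺(v)| ≤ |N₂⁺(v)|`, where `N₂⁺(v)` is the set of vertices at directed distance exactly two.

The proof applies Kemperman's theorem (`Vale.Agent.H48.kemperman`) inside the automorphism
group to `T = S ∪ {1}`, `S = {σ | v → σ v}`, and pushes the resulting bound `|T T| ≥ 2 |T| - 1`
down along the orbit map `σ ↦ σ v`, all of whose fibres have the size of the stabiliser of `v`.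
-/

namespace Vale.Agent.Results.P038.C_VertexTransitive

open Finset
open scoped Pointwise

theorem result {V : Type*} [Finite V] (D : Digraph V)
    (hor : ∀ u w, D.Adj u w → ¬ D.Adj w u)
    (htrans : ∀ u w, ∃ φ : D.Adj ≃r D.Adj, φ u = w) (v : V) :
    {u | D.Adj v u}.ncard ≤
      {w | w ≠ v ∧ ¬ D.Adj v w ∧ ∃ u, D.Adj v u ∧ D.Adj u w}.ncard := by
  classical
  have : Fintype V := Fintype.ofFinite V
  have : Finite (D.Adj ≃r D.Adj) := Finite.of_injective (fun f => (f : V → V))
    DFunLike.coe_injective
  have : Fintype (D.Adj ≃r D.Adj) := Fintype.ofFinite _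
  -- the finsets of first and second out-neighbours
  set N1 : Finset V := Finset.univ.filter (fun u => D.Adj v u) with hN1
  set N2 : Finset V := Finset.univ.filter
    (fun w => w ≠ v ∧ ¬ D.Adj v w ∧ ∃ u, D.Adj v u ∧ D.Adj u w) with hN2
  have hset1 : {u | D.Adj v u} = (N1 : Set V) := by
    ext u; simp [hN1]
  have hset2 : {w | w ≠ v ∧ ¬ D.Adj v w ∧ ∃ u, D.Adj v u ∧ D.Adj u w} = (N2 : Set V) := by
    ext w; simp [hN2]
  rw [hset1, hset2, Set.ncard_coe_finset, Set.ncard_coe_finset]
  -- the group elements moving `v` to an out-neighbour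
  set S : Finset (D.Adj ≃r D.Adj) := Finset.univ.filter (fun σ => D.Adj v (σ v)) with hS
  set T : Finset (D.Adj ≃r D.Adj) := insert 1 S with hT
  have hloop : ∀ u, ¬ D.Adj u u := fun u h => hor u u h h
  have h1S : (1 : D.Adj ≃r D.Adj) ∉ S := by
    simp [hS, RelIso.one_apply, hloop]
  have hTcard : T.card = S.card + 1 := Finset.card_insert_of_notMem h1S
  have h1T : (1 : D.Adj ≃r D.Adj) ∈ T := Finset.mem_insert_self _ _
  have hmemS : ∀ σ : D.Adj ≃r D.Adj, σ ∈ S ↔ D.Adj v (σ v) := by
    intro σ; simp [hS]
  -- unique representation of `1` in `T * T`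
  have huniq : ∀ a ∈ T, ∀ c ∈ T, a * c = 1 → a = 1 := by
    intro a ha c hc hac
    rcases Finset.mem_insert.1 ha with ha | ha
    · exact ha
    · rcases Finset.mem_insert.1 hc with hc | hc
      · rw [hc, mul_one] at hac
        exact hac
      · exfalso
        have hc' : c = a⁻¹ := eq_inv_of_mul_eq_one_right hac
        rw [hmemS] at ha hc
        rw [hc'] at hc
        have h2 : D.Adj (a v) (a (a⁻¹ v)) := a.map_rel_iff.2 hc
        rw [RelIso.apply_inv_self] at h2
        exact hor _ _ ha h2
  have hkemp := Vale.Agent.H48.kemperman T T h1T h1T huniq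
  -- all fibres of the orbit map have the same size
  set c : ℕ := (Finset.univ.filter (fun σ : D.Adj ≃r D.Adj => σ v = v)).card with hc
  have hfiber : ∀ w : V, (Finset.univ.filter (fun σ : D.Adj ≃r D.Adj => σ v = w)).card = c := by
    intro w
    obtain ⟨τ, hτ⟩ := htrans v w
    rw [hc]
    symm
    apply Finset.card_bij (fun σ _ => τ * σ)
    · intro σ hσ
      simp only [Finset.mem_filter, Finset.mem_univ, true_and] at hσ ⊢
      rw [RelIso.mul_apply, hσ, hτ]
    · intro σ₁ _ σ₂ _ h
      exact mul_left_cancel h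
    · intro ρ hρ
      simp only [Finset.mem_filter, Finset.mem_univ, true_and] at hρ
      refine ⟨τ⁻¹ * ρ, ?_, by simp⟩
      simp only [Finset.mem_filter, Finset.mem_univ, true_and]
      rw [RelIso.mul_apply, hρ, ← hτ, RelIso.inv_apply_self]
  -- counting preimages of a vertex set under the orbit map
  have hpre : ∀ W : Finset V,
      (Finset.univ.filter (fun σ : D.Adj ≃r D.Adj => σ v ∈ W)).card = c * W.card := by
    intro W
    have hmaps : ((Finset.univ.filter (fun σ : D.Adj ≃r D.Adj => σ v ∈ W) :
        Finset (D.Adj ≃r D.Adj)) : Set (D.Adj ≃r D.Adj)).MapsTo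
        (fun σ : D.Adj ≃r D.Adj => σ v) (W : Set V) := by
      intro σ hσ
      have := (Finset.mem_filter.1 (Finset.mem_coe.1 hσ)).2
      exact Finset.mem_coe.2 this
    rw [Finset.card_eq_sum_card_fiberwise hmaps]
    have : ∀ w ∈ W, ((Finset.univ.filter (fun σ : D.Adj ≃r D.Adj => σ v ∈ W)).filter
        (fun σ => σ v = w)).card = c := by
      intro w hw
      rw [← hfiber w]
      congr 1
      ext σ
      simp only [Finset.mem_filter, Finset.mem_univ, true_and]
      constructor
      · exact fun h => h.2
      · exact fun h => ⟨h ▸ hw, h⟩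
    rw [Finset.sum_congr rfl this]
    simp [mul_comm]
  -- `S` is the preimage of `N1`
  have hScard : S.card = c * N1.card := by
    rw [← hpre N1]
    congr 1
    ext σ
    simp [hS, hN1]
  -- `T * T` maps into `{v} ∪ N1 ∪ N2`
  set W : Finset V := insert v (N1 ∪ N2) with hW
  have hTT : T * T ⊆ Finset.univ.filter (fun σ : D.Adj ≃r D.Adj => σ v ∈ W) := by
    intro ρ hρ
    obtain ⟨σ, hσ, τ, hτ, rfl⟩ := Finset.mem_mul.1 hρ
    simp only [Finset.mem_filter, Finset.mem_univ, true_and, RelIso.mul_apply]
    have hmemW : ∀ w : V, (w = v ∨ D.Adj v w ∨ ∃ u, D.Adj v u ∧ D.Adj u w) → w ∈ W := by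
      intro w hw
      by_cases h1 : w = v
      · rw [hW, h1]; exact Finset.mem_insert_self _ _
      by_cases h2 : D.Adj v w
      · rw [hW]
        exact Finset.mem_insert_of_mem (Finset.mem_union_left _ (by simp [hN1, h2]))
      · rcases hw with hw | hw | hw
        · exact absurd hw h1
        · exact absurd hw h2
        · rw [hW]
          exact Finset.mem_insert_of_mem (Finset.mem_union_right _ (by
            simp only [hN2, Finset.mem_filter, Finset.mem_univ, true_and]
            exact ⟨h1, h2, hw⟩))
    apply hmemW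
    rcases Finset.mem_insert.1 hτ with hτ | hτ
    · rw [hτ, RelIso.one_apply]
      rcases Finset.mem_insert.1 hσ with hσ | hσ
      · left; rw [hσ, RelIso.one_apply]
      · right; left; exact (hmemS σ).1 hσ
    · rw [hmemS] at hτ
      rcases Finset.mem_insert.1 hσ with hσ | hσ
      · right; left; rw [hσ, RelIso.one_apply]; exact hτ
      · right; right
        exact ⟨σ v, (hmemS σ).1 hσ, σ.map_rel_iff.2 hτ⟩
  have hTTcard : (T * T).card ≤ c * W.card := by
    rw [← hpre W]
    exact Finset.card_le_card hTT
  have hWcard : W.card ≤ 1 + (N1.card + N2.card) := by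
    rw [hW]
    calc (insert v (N1 ∪ N2)).card ≤ (N1 ∪ N2).card + 1 := Finset.card_insert_le _ _
      _ ≤ N1.card + N2.card + 1 := by
          have := Finset.card_union_le N1 N2
          omega
      _ = 1 + (N1.card + N2.card) := by ring
  -- arithmetic
  have h1 : c * W.card ≤ c * (1 + (N1.card + N2.card)) := Nat.mul_le_mul_left c hWcard
  have h2 : c * N1.card < c * (1 + N2.card) := by
    have e1 : c * (1 + (N1.card + N2.card)) = c + c * N1.card + c * N2.card := by ring
    have e2 : c * (1 + N2.card) = c + c * N2.card := by ring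
    rw [hTcard, hScard] at hkemp
    omega
  have h3 : N1.card < 1 + N2.card := Nat.lt_of_mul_lt_mul_left h2
  omega

end Vale.Agent.Results.P038.C_VertexTransitive
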